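import Vale.Agent.P331.H250.Ker
import Vale.Agent.P331.H379.JLabel

/-!
# Good contexts and violations computed from thinnings of the sample
-/

set_option autoImplicit false
set_option linter.unusedSectionVars false

namespace Vale.Agent.P331.H828

open Finset Vale.Agent.P331.H489 Vale.Agent.P331.H250 Vale.Agent.P331.H379
open scoped Classical

section

variable {E : Type} [Fintype E]

/-- expectation over the thinning of `S` at the constant rate `t` -/
noncomputable def Tn (t : ℝ) (S : Finset E) (f : Finset E → ℝ) : ℝ := TH (fun _ => t) S f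

theorem Tn_nonneg {t : ℝ} (h0 : 0 ≤ t) (h1 : t ≤ 1) (S : Finset E) {f : Finset E → ℝ}
    (hf : ∀ G, G ⊆ S → 0 ≤ f G) : 0 ≤ Tn t S f :=
  TH_nonneg (fun _ => h0) (fun _ => h1) S hf

theorem Tn_mono {t : ℝ} (h0 : 0 ≤ t) (h1 : t ≤ 1) (S : Finset E) {f g : Finset E → ℝ}
    (hf : ∀ G, G ⊆ S → f G ≤ g G) : Tn t S f ≤ Tn t S g :=
  TH_mono (fun _ => h0) (fun _ => h1) S hf

theorem Tn_congr (t : ℝ) (S : Finset E) {f g : Finset E → ℝ}
    (hf : ∀ G, G ⊆ S → f G = g G) : Tn t S f = Tn t S g :=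
  TH_congr (fun _ _ => rfl) hf

theorem Tn_const (t : ℝ) (S : Finset E) (c : ℝ) : Tn t S (fun _ => c) = c := TH_const _ _ _

theorem Tn_add (t : ℝ) (S : Finset E) (f g : Finset E → ℝ) :
    Tn t S (fun G => f G + g G) = Tn t S f + Tn t S g := TH_add _ _ _ _

theorem Tn_sub (t : ℝ) (S : Finset E) (f g : Finset E → ℝ) :
    Tn t S (fun G => f G - g G) = Tn t S f - Tn t S g := TH_sub _ _ _ _

theorem Tn_mul (t : ℝ) (S : Finset E) (c : ℝ) (f : Finset E → ℝ) :
    Tn t S (fun G => c * f G) = c * Tn t S f := TH_mul _ _ _ _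

theorem Tn_sum {ι : Type*} (s : Finset ι) (t : ℝ) (S : Finset E) (f : ι → Finset E → ℝ) :
    Tn t S (fun G => ∑ i ∈ s, f i G) = ∑ i ∈ s, Tn t S (f i) := TH_sum _ _ _ _

theorem Tn_markov {t : ℝ} (h0 : 0 ≤ t) (h1 : t ≤ 1) (S : Finset E) {f : Finset E → ℝ}
    (hf : ∀ G, G ⊆ S → 0 ≤ f G) {c : ℝ} (P : Finset E → Prop)
    (hP : ∀ G, G ⊆ S → P G → c ≤ f G) :
    c * Tn t S (fun G => if P G then 1 else 0) ≤ Tn t S f :=
  TH_markov (fun _ => h0) (fun _ => h1) S hf P hP

/-- indicator -/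
noncomputable def ind (P : Prop) : ℝ := if P then 1 else 0

theorem ind_nonneg (P : Prop) : 0 ≤ ind P := by unfold ind; split_ifs <;> norm_num

theorem ind_le_one (P : Prop) : ind P ≤ 1 := by unfold ind; split_ifs <;> norm_num

theorem ind_pos {P : Prop} (h : P) : ind P = 1 := if_pos h

theorem ind_neg {P : Prop} (h : ¬ P) : ind P = 0 := if_neg h

theorem ind_mono {P Q : Prop} (h : P → Q) : ind P ≤ ind Q := by
  by_cases hP : P
  · rw [ind_pos hP, ind_pos (h hP)]
  · rw [ind_neg hP]; exact ind_nonneg Q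

theorem ind_congr {P Q : Prop} (h : P ↔ Q) : ind P = ind Q := by
  unfold ind; simp only [h]

variable (D : Finset E → Prop)

/-- probability that the context `C` and a thinning of `R` miss the family -/
noncomputable def ms (t : ℝ) (R C : Finset E) : ℝ := Tn t R fun N => ind (¬ D (C ∪ N))

/-- `Y` is a good context for the pool `G` of the sample `S` -/
def good (t : ℝ) (k : ℕ) (ep : ℝ) (S G Y : Finset E) : Prop :=
  Y.card ≤ k ∧ ms D t (S \ G) (Y ∪ G) ≤ ep / (Y.card + 1)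

/-- probability that `X` contains no good context -/
noncomputable def fx (g t : ℝ) (k : ℕ) (ep : ℝ) (S X : Finset E) : ℝ :=
  Tn g S fun G => ind (¬ ∃ Y ⊆ X, good D t k ep S G Y)

/-- violation -/
def vio (g t : ℝ) (k : ℕ) (ep Z ta : ℝ) (S X : Finset E) : Prop :=
  (X.card : ℝ) ≤ Z ∧ fx D g t k ep S X ≤ ta / (X.card + 1)

/-- pivotal -/
def pivD (f : E) (U : Finset E) : Prop := D (insert f U) ∧ ¬ D (U.erase f)

/-- probability of being pivotal at the context `C` and a thinning of `R` -/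
noncomputable def pr (t : ℝ) (f : E) (R C : Finset E) : ℝ := Tn t R fun N => ind (pivD D f (C ∪ N))

/-- some small context makes `f` pivotal with probability `de` -/
def Act (t : ℝ) (k : ℕ) (de : ℝ) (V G R : Finset E) (f : E) : Prop :=
  ∃ Y ⊆ V, Y.card ≤ k ∧ de ≤ pr D t f R (Y ∪ G)

variable {D}

theorem ms_nonneg {t : ℝ} (h0 : 0 ≤ t) (h1 : t ≤ 1) (R C : Finset E) : 0 ≤ ms D t R C :=
  Tn_nonneg h0 h1 R fun _ _ => ind_nonneg _

theorem ms_le_one {t : ℝ} (h0 : 0 ≤ t) (h1 : t ≤ 1) (R C : Finset E) : ms D t R C ≤ 1 := by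
  refine (Tn_mono h0 h1 R (g := fun _ => 1) fun _ _ => ind_le_one _).trans ?_
  rw [Tn_const]

/-- a minimal good context makes its elements pivotal -/
theorem act_of_good (hD : ∀ A B : Finset E, A ⊆ B → D A → D B) {t : ℝ} (h0 : 0 ≤ t)
    (h1 : t ≤ 1) {k : ℕ} {ep : ℝ} (hep : 0 ≤ ep) {S G Y : Finset E} {f : E} (hf : f ∈ Y)
    (hY : good D t k ep S G Y) (hn : ¬ good D t k ep S G (Y.erase f)) :
    ep / ((k : ℝ) + 1) ^ 2 ≤ pr D t f (S \ G) (Y.erase f ∪ G) := by
  obtain ⟨hk, hm⟩ := hY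
  have hcard : (Y.erase f).card + 1 = Y.card := card_erase_add_one hf
  have hcard' : ((Y.erase f).card : ℝ) + 1 = Y.card := by exact_mod_cast hcard
  have hpos : (0 : ℝ) < Y.card := by exact_mod_cast card_pos.2 ⟨f, hf⟩
  have hn' : ep / Y.card < ms D t (S \ G) (Y.erase f ∪ G) := by
    by_contra hcon
    push Not at hcon
    exact hn ⟨by omega, by rw [hcard']; exact hcon⟩
  have hle : ms D t (S \ G) (Y.erase f ∪ G) - ms D t (S \ G) (Y ∪ G) ≤
      pr D t f (S \ G) (Y.erase f ∪ G) := by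
    unfold ms pr
    rw [← Tn_sub]
    refine Tn_mono h0 h1 _ fun N _ => ?_
    by_cases ha : D (Y ∪ G ∪ N)
    · by_cases hb : D (Y.erase f ∪ G ∪ N)
      · rw [ind_neg (not_not.2 hb), ind_neg (not_not.2 ha), sub_zero]
        exact ind_nonneg _
      · have hp : pivD D f (Y.erase f ∪ G ∪ N) := by
          refine ⟨hD _ _ ?_ ha, fun hc => hb (hD _ _ (erase_subset _ _) hc)⟩
          intro x hx
          simp only [mem_union, mem_insert, mem_erase] at hx ⊢
          by_cases hxf : x = f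
          · exact Or.inl hxf
          · tauto
        rw [ind_pos hb, ind_neg (not_not.2 ha), ind_pos hp, sub_zero]
    · have hb : ¬ D (Y.erase f ∪ G ∪ N) := fun hc => ha (hD _ _ (by
        intro x hx
        simp only [mem_union, mem_erase] at hx ⊢
        tauto) hc)
      rw [ind_pos hb, ind_pos ha, sub_self]
      exact ind_nonneg _
  have hkr : (Y.card : ℝ) ≤ k := by exact_mod_cast hk
  have h2 : ep / ((k : ℝ) + 1) ^ 2 ≤ ep / Y.card - ep / (Y.card + 1) := by
    have e1 : ep / Y.card - ep / (Y.card + 1) = ep / (Y.card * (Y.card + 1)) := by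
      field_simp
      ring
    rw [e1]
    refine div_le_div_of_nonneg_left hep (by positivity) ?_
    nlinarith
  linarith

/-- inclusion-minimal sets -/
theorem exists_min {P : Finset E → Prop} (U : Finset E) (hU : P U) :
    ∃ X ⊆ U, P X ∧ ∀ X' ⊂ X, ¬ P X' := by
  induction U using Finset.strongInduction with
  | H U ih =>
    by_cases h : ∃ X' ⊂ U, P X'
    · obtain ⟨X', hX', hP⟩ := h
      obtain ⟨X, hX, h1, h2⟩ := ih X' hX' hP
      exact ⟨X, hX.trans hX'.subset, h1, h2⟩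
    · push Not at h
      exact ⟨U, subset_rfl, hU, h⟩

/-- if `X` contains a good context and `X'` does not, some element outside `X'` is active -/
theorem act_of_fx (hD : ∀ A B : Finset E, A ⊆ B → D A → D B) {t : ℝ} (h0 : 0 ≤ t)
    (h1 : t ≤ 1) {k : ℕ} {ep : ℝ} (hep : 0 ≤ ep) {S G X X' : Finset E}
    (hX : ∃ Y ⊆ X, good D t k ep S G Y) (hX' : ¬ ∃ Y ⊆ X', good D t k ep S G Y) :
    ∃ f ∈ X \ X', Act D t k (ep / ((k : ℝ) + 1) ^ 2) X G (S \ G) f := by
  obtain ⟨Y, hYX, hY⟩ := hX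
  obtain ⟨Y0, hY0, hg, hmin⟩ := exists_min (P := good D t k ep S G) Y hY
  have hnot : ¬ Y0 ⊆ X' := fun h => hX' ⟨Y0, h, hg⟩
  rw [Finset.not_subset] at hnot
  obtain ⟨f, hf, hfX⟩ := hnot
  refine ⟨f, mem_sdiff.2 ⟨hYX (hY0 hf), hfX⟩, Y0.erase f,
    (erase_subset _ _).trans (hY0.trans hYX), ?_, ?_⟩
  · exact (card_le_card (erase_subset _ _)).trans hg.1
  · exact act_of_good hD h0 h1 hep hf hg (hmin _ (erase_ssubset hf))

theorem Act_mono {t : ℝ} {k : ℕ} {de : ℝ} {V V' G R : Finset E} {f : E} (h : V ⊆ V')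
    (ha : Act D t k de V G R f) : Act D t k de V' G R f := by
  obtain ⟨Y, h1, h2⟩ := ha
  exact ⟨Y, h1.trans h, h2⟩

/-- **Lemma R, pointwise form**: an element of a minimal violating set is active for a noticeable
share of the pools. -/
theorem act_of_vio (hD : ∀ A B : Finset E, A ⊆ B → D A → D B) {g t : ℝ} (g0 : 0 ≤ g)
    (g1 : g ≤ 1) (h0 : 0 ≤ t) (h1 : t ≤ 1) {k : ℕ} {ep Z ta : ℝ} (hep : 0 ≤ ep) (hta : 0 ≤ ta)
    {S X V : Finset E} {b : E} (hb : b ∈ X) (hXV : X ⊆ V) (hv : vio D g t k ep Z ta S X)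
    (hn : ¬ vio D g t k ep Z ta S (X.erase b)) :
    ta / (Z + 1) ^ 2 ≤ Tn g S (fun G =>
      ind (Act D t k (ep / ((k : ℝ) + 1) ^ 2) V G (S \ G) b)) := by
  obtain ⟨hc, hfx⟩ := hv
  have hcard : ((X.erase b).card : ℝ) + 1 = X.card := by exact_mod_cast card_erase_add_one hb
  have hpos : (0 : ℝ) < X.card := by exact_mod_cast card_pos.2 ⟨b, hb⟩
  have hn' : ta / X.card < fx D g t k ep S (X.erase b) := by
    by_contra hcon
    push Not at hcon
    exact hn ⟨by linarith, by rw [hcard]; exact hcon⟩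
  have hle : fx D g t k ep S (X.erase b) - fx D g t k ep S X ≤ Tn g S (fun G =>
      ind (Act D t k (ep / ((k : ℝ) + 1) ^ 2) V G (S \ G) b)) := by
    unfold fx
    rw [← Tn_sub]
    refine Tn_mono g0 g1 _ fun G _ => ?_
    by_cases hx : ∃ Y ⊆ X, good D t k ep S G Y
    · by_cases hx' : ∃ Y ⊆ X.erase b, good D t k ep S G Y
      · rw [ind_neg (not_not.2 hx'), ind_neg (not_not.2 hx), sub_zero]
        exact ind_nonneg _
      · obtain ⟨f, hf, ha⟩ := act_of_fx hD h0 h1 hep hx hx'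
        have hfb : f = b := by
          rw [mem_sdiff, mem_erase] at hf
          by_contra hne
          exact hf.2 ⟨hne, hf.1⟩
        subst hfb
        rw [ind_pos hx', ind_neg (not_not.2 hx), ind_pos (Act_mono hXV ha), sub_zero]
    · have hx' : ¬ ∃ Y ⊆ X.erase b, good D t k ep S G Y := fun ⟨Y, hY, hg⟩ =>
        hx ⟨Y, hY.trans (erase_subset _ _), hg⟩
      rw [ind_pos hx', ind_pos hx, sub_self]
      exact ind_nonneg _
  have h2 : ta / (Z + 1) ^ 2 ≤ ta / X.card - ta / (X.card + 1) := by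
    have e1 : ta / X.card - ta / (X.card + 1) = ta / (X.card * (X.card + 1)) := by
      field_simp
      ring
    rw [e1]
    refine div_le_div_of_nonneg_left hta (by positivity) ?_
    nlinarith
  linarith

end

end Vale.Agent.P331.H828
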