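import Vale.Agent.P331.H828.Defs
import Vale.Agent.P331.H514.Q2

/-!
# Thinnings as labels
-/

set_option autoImplicit false
set_option linter.unusedSectionVars false

namespace Vale.Agent.P331.H828

open Finset Vale.Agent.P331.H489 Vale.Agent.P331.H250 Vale.Agent.P331.H379
open scoped Classical

/-- labels: test, pool, rest of the sample -/
inductive A3 | v | h | r
  deriving DecidableEq

instance : Fintype A3 := ⟨{.v, .h, .r}, by intro x; cases x <;> decide⟩

theorem sum_A3 (f : A3 → ℝ) : ∑ l, f l = f .v + f .h + f .r := by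
  have h : (univ : Finset A3) = {.v, .h, .r} := rfl
  rw [h, sum_insert (by decide), sum_insert (by decide), sum_singleton]
  ring

/-- labels: outside, kept pool, averaged pool, rest of the sample -/
inductive A4 | o | x | g | r
  deriving DecidableEq

instance : Fintype A4 := ⟨{.o, .x, .g, .r}, by intro x; cases x <;> decide⟩

theorem sum_A4 (f : A4 → ℝ) : ∑ l, f l = f .o + f .x + f .g + f .r := by
  have h : (univ : Finset A4) = {.o, .x, .g, .r} := rfl
  rw [h, sum_insert (by decide), sum_insert (by decide), sum_insert (by decide), sum_singleton]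
  ring

/-- weights: test `p`, sample `1 - p` (label `true`) -/
noncomputable def w2 (p : ℝ) (b : Bool) : ℝ := if b then 1 - p else p

noncomputable def w3 (p g : ℝ) : A3 → ℝ
  | .v => p
  | .h => (1 - p) * g
  | .r => (1 - p) * (1 - g)

noncomputable def w4 (p g g' : ℝ) : A4 → ℝ
  | .o => p
  | .x => (1 - p) * g
  | .g => (1 - p) * (1 - g) * g'
  | .r => (1 - p) * (1 - g) * (1 - g')

theorem w2_nonneg {p : ℝ} (h0 : 0 ≤ p) (h1 : p ≤ 1) (b : Bool) : 0 ≤ w2 p b := by
  unfold w2; split_ifs <;> linarith

theorem w2_sum (p : ℝ) : ∑ b, w2 p b = 1 := by rw [Fintype.sum_bool]; simp [w2]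

theorem w3_nonneg {p g : ℝ} (h0 : 0 ≤ p) (h1 : p ≤ 1) (g0 : 0 ≤ g) (g1 : g ≤ 1) (l : A3) :
    0 ≤ w3 p g l := by
  have : 0 ≤ 1 - p := by linarith
  have : 0 ≤ 1 - g := by linarith
  cases l <;> simp only [w3] <;> positivity

theorem w3_sum (p g : ℝ) : ∑ l, w3 p g l = 1 := by rw [sum_A3]; simp only [w3]; ring

theorem w4_nonneg {p g g' : ℝ} (h0 : 0 ≤ p) (h1 : p ≤ 1) (g0 : 0 ≤ g) (g1 : g ≤ 1)
    (g0' : 0 ≤ g') (g1' : g' ≤ 1) (l : A4) : 0 ≤ w4 p g g' l := by
  have : 0 ≤ 1 - p := by linarith
  have : 0 ≤ 1 - g := by linarith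
  have : 0 ≤ 1 - g' := by linarith
  cases l <;> simp only [w4] <;> positivity

theorem w4_sum (p g g' : ℝ) : ∑ l, w4 p g g' l = 1 := by rw [sum_A4]; simp only [w4]; ring

section

variable {E : Type} [Fintype E]

/-- thinning one label class and renaming the labels -/
theorem EX_Tn {L L' : Type} [Fintype L] [DecidableEq L] [Fintype L'] [DecidableEq L']
    (w : L → ℝ) (c : L) (g : ℝ) (m : L × Bool → L') (F : (E → L) → Finset E → ℝ)
    (F' : (E → L') → ℝ) (w' : L' → ℝ)
    (hF : ∀ ω : E → L, ∀ G ⊆ lab c ω, F ω G = F' (fun e => m (ω e, decide (e ∈ G))))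
    (hw' : ∀ l', w' l' = ∑ x : L × Bool with m x = l',
      w x.1 * (if x.1 = c then (if x.2 then g else 1 - g) else (if x.2 then 0 else 1))) :
    EX (fun _ => w) (fun ω => Tn g (lab c ω) (F ω)) = EX (fun _ => w') F' := by
  have h1 : ∀ ω : E → L, Tn g (lab c ω) (F ω) =
      EX (fun e b => if ω e = c then (if b then g else 1 - g) else (if b then 0 else 1))
        (fun b => F' (fun e => m (ω e, b e))) := by
    intro ω
    unfold Tn TH
    have hb : bw (fun _ => g) (lab c ω) = fun (e : E) (b : Bool) =>
        if ω e = c then (if b then g else 1 - g) else (if b then 0 else 1) := by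
      funext e b
      simp only [bw, lab, mem_filter, mem_univ, true_and]
    rw [hb]
    refine H250.EX_congr_supp fun b hb => ?_
    rw [hF ω (tset b)]
    · congr 1
      funext e
      simp [tset]
    · intro e he
      rw [mem_tset] at he
      have := hb e
      rw [he] at this
      simp only [lab, mem_filter, mem_univ, true_and]
      by_contra hne
      rw [if_neg hne] at this
      simp at this
  simp only [h1]
  rw [H250.EX_bind_map (fun _ => w) (fun _ l b => if l = c then (if b = true then g else 1 - g)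
    else (if b = true then 0 else 1)) m F']
  refine H250.EX_congr (fun e l' => ?_) fun _ => rfl
  rw [hw' l']

/-- sample, then pool -/
theorem EX2_Tn (p g : ℝ) (F : Finset E → Finset E → ℝ) :
    EX (fun _ => w2 p) (fun ω : E → Bool => Tn g (lab true ω) (fun G => F (lab true ω) G)) =
      EX (fun _ => w3 p g) (fun ω => F (lab .h ω ∪ lab .r ω) (lab .h ω)) := by
  have h := EX_Tn (E := E) (w2 p) true g
    (fun x => if x.1 = false then A3.v else if x.2 = true then A3.h else A3.r)
    (fun ω G => F (lab true ω) G) (fun ω => F (lab .h ω ∪ lab .r ω) (lab .h ω)) (w3 p g)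
  refine h ?_ ?_
  · intro ω G hG
    have hG' : ∀ e ∈ G, ω e = true := fun e he => by
      have := hG he
      simpa [lab] using this
    congr 1
    · ext e
      simp only [lab, mem_filter, mem_univ, true_and, mem_union]
      by_cases h1 : ω e = true
      · by_cases h2 : e ∈ G <;> simp [h1, h2]
      · simp [h1]
    · ext e
      simp only [lab, mem_filter, mem_univ, true_and]
      by_cases h1 : ω e = true
      · by_cases h2 : e ∈ G <;> simp [h1, h2]
      · have h2 : e ∉ G := fun h => h1 (hG' e h)
        simp [h1, h2]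
  · intro l
    rw [sum_filter, Fintype.sum_prod_type]
    cases l <;> simp [Fintype.sum_bool, w2, w3]

/-- pool and rest, then another pool -/
theorem EX3_Tn (p g g' : ℝ) (F : Finset E → Finset E → Finset E → ℝ) :
    EX (fun _ => w3 p g) (fun ω : E → A3 => Tn g' (lab .r ω) (fun G =>
      F (lab .h ω) (lab .r ω) G)) =
      EX (fun _ => w4 p g g') (fun ω => F (lab .x ω) (lab .g ω ∪ lab .r ω) (lab .g ω)) := by
  have h := EX_Tn (E := E) (w3 p g) .r g' (fun x => match x.1 with
      | .v => A4.o
      | .h => A4.x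
      | .r => if x.2 = true then A4.g else A4.r)
    (fun ω G => F (lab .h ω) (lab .r ω) G)
    (fun ω => F (lab .x ω) (lab .g ω ∪ lab .r ω) (lab .g ω)) (w4 p g g')
  refine h ?_ ?_
  · intro ω G hG
    have hG' : ∀ e ∈ G, ω e = .r := fun e he => by
      have := hG he
      simpa [lab] using this
    congr 1
    · ext e
      simp only [lab, mem_filter, mem_univ, true_and]
      rcases h : ω e with _ | _ | _
      · simp
      · simp
      · by_cases h2 : e ∈ G <;> simp [h2]
    · ext e
      simp only [lab, mem_filter, mem_univ, true_and, mem_union]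
      rcases h : ω e with _ | _ | _
      · simp
      · simp
      · by_cases h2 : e ∈ G <;> simp [h2]
    · ext e
      simp only [lab, mem_filter, mem_univ, true_and]
      rcases h : ω e with _ | _ | _
      · have h2 : e ∉ G := fun h' => by rw [hG' e h'] at h; cases h
        simp [h2]
      · have h2 : e ∉ G := fun h' => by rw [hG' e h'] at h; cases h
        simp [h2]
      · by_cases h2 : e ∈ G <;> simp [h2]
  · intro l
    rw [sum_filter, Fintype.sum_prod_type]
    cases l <;> simp [Fintype.sum_bool, sum_A3, w3, w4]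

/-- pushing labels forward, coordinate by coordinate -/
theorem EX_pushE {L C : Type} [Fintype L] [DecidableEq L] [Fintype C] [DecidableEq C]
    (f : E → L → C) (w : E → L → ℝ) (F : (E → C) → ℝ) :
    EX w (fun ω => F (fun e => f e (ω e))) = EX (fun e c => ∑ l with f e l = c, w e l) F := by
  unfold EX
  have h : ∀ κ : E → C, (∏ e, ∑ l with f e l = κ e, w e l) =
      ∑ ω : E → L with (fun e => f e (ω e)) = κ, ∏ e, w e (ω e) := by
    intro κ
    rw [Finset.prod_univ_sum]
    refine sum_congr ?_ fun _ _ => rfl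
    ext ω
    simp only [Fintype.mem_piFinset, mem_filter, mem_univ, true_and]
    exact funext_iff.symm
  simp only [h, sum_mul]
  rw [← sum_fiberwise_of_maps_to (s := univ) (t := univ) (g := fun ω : E → L =>
    fun e => f e (ω e)) (fun _ _ => mem_univ _)]
  refine sum_congr rfl fun κ _ => sum_congr rfl fun ω hω => ?_
  rw [(mem_filter.1 hω).2]

/-- the kernel of the noise: `r` becomes `x` with probability `θ`, `g` becomes `x` -/
noncomputable def K4 (θ : ℝ) : A4 → A4 → ℝ
  | .o, .o => 1
  | .x, .x => 1
  | .g, .x => 1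
  | .r, .x => θ
  | .r, .o => 1 - θ
  | _, _ => 0

theorem K4_nonneg {θ : ℝ} (h0 : 0 ≤ θ) (h1 : θ ≤ 1) (l l' : A4) : 0 ≤ K4 θ l l' := by
  cases l <;> cases l' <;> simp only [K4] <;> linarith

theorem K4_sum (θ : ℝ) (l : A4) : ∑ l', K4 θ l l' = 1 := by
  rw [sum_A4]
  cases l <;> simp [K4]

theorem KE_K4 (D : Finset E → Prop) (θ : ℝ) (ω : E → A4) :
    H514.KE (fun _ => K4 θ) (fun τ => ind (¬ D (lab .x τ))) ω =
      ms D θ (lab .r ω) (lab .x ω ∪ lab .g ω) := by
  unfold H514.KE ms Tn TH
  have h1 : ∀ b : E → Bool, ind (¬ D (lab .x ω ∪ lab .g ω ∪ tset b)) =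
      (fun τ : E → A4 => ind (¬ D (lab .x τ))) (fun e => if ω e = .x ∨ ω e = .g then A4.x else
        if b e = true then A4.x else A4.o) := by
    intro b
    show _ = ind _
    congr 3
    ext e
    simp only [lab, mem_union, mem_filter, mem_univ, true_and, mem_tset]
    by_cases h1 : ω e = .x ∨ ω e = .g
    · rw [if_pos h1]; simp [h1]
    · rw [if_neg h1]
      by_cases h2 : b e = true <;> simp [h1, h2]
  simp only [h1]
  rw [EX_pushE (fun e (b : Bool) => if ω e = .x ∨ ω e = .g then A4.x else
        if b = true then A4.x else A4.o) _ (fun τ : E → A4 => ind (¬ D (lab .x τ)))]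
  refine H250.EX_congr (fun e l => ?_) fun _ => rfl
  rw [sum_filter, Fintype.sum_bool]
  simp only [bw, lab, mem_filter, mem_univ, true_and]
  rcases h : ω e with _ | _ | _ | _ <;> cases l <;> simp [K4]

end

end Vale.Agent.P331.H828
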