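import Vale.Agent.P331.H828.Lab

/-!
# Lemma L: a violating set without a violating subset of the level below is lucky
-/

set_option autoImplicit false
set_option linter.unusedSectionVars false

namespace Vale.Agent.P331.H828

open Finset Vale.Agent.P331.H489 Vale.Agent.P331.H250 Vale.Agent.P331.H379
open scoped Classical

section

variable {E : Type} [Fintype E] {D : Finset E → Prop}

/-- Step A: pointwise split. -/
theorem split_point (hD : ∀ A B : Finset E, A ⊆ B → D A → D B) {g t : ℝ} (g0 : 0 ≤ g)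
    (g1 : g ≤ 1) (t0 : 0 ≤ t) (t1 : t ≤ 1) {k : ℕ} {ep Z ta : ℝ} (hep : 0 ≤ ep) (hta : 0 ≤ ta)
    {S X Es : Finset E} (hX : X ⊆ Sᶜ)
    (hn : ∀ X' ⊆ X, ¬ vio D g t k ep Z ta S X') (hEs : (Es.card : ℝ) ≤ Z) :
    ta / (Z + 1) ≤ Tn g S (fun G => ind (¬ ∃ Y ⊆ X, good D t k ep S G Y)) +
      ∑ f ∈ Esᶜ, Tn g S (fun G =>
        ind (Act D t k (ep / ((k : ℝ) + 1) ^ 2) Sᶜ G (S \ G) f)) := by
  have hc : ((X ∩ Es).card : ℝ) ≤ Es.card := by
    exact_mod_cast card_le_card inter_subset_right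
  have hZ : 0 ≤ Z := le_trans (by positivity) hEs
  have hn' := hn (X ∩ Es) inter_subset_left
  unfold vio at hn'
  push Not at hn'
  have h1 := hn' (hc.trans hEs)
  have h2 : ta / (Z + 1) ≤ ta / (((X ∩ Es).card : ℝ) + 1) := by
    refine div_le_div_of_nonneg_left hta (by positivity) ?_
    linarith
  refine (h2.trans h1.le).trans ?_
  unfold fx
  rw [← Tn_sum, ← Tn_add]
  refine Tn_mono g0 g1 _ fun G _ => ?_
  have hs : 0 ≤ ∑ f ∈ Esᶜ, ind (Act D t k (ep / ((k : ℝ) + 1) ^ 2) Sᶜ G (S \ G) f) :=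
    sum_nonneg fun _ _ => ind_nonneg _
  by_cases hx : ∃ Y ⊆ X, good D t k ep S G Y
  · by_cases hx' : ∃ Y ⊆ X ∩ Es, good D t k ep S G Y
    · rw [ind_neg (not_not.2 hx'), ind_neg (not_not.2 hx)]
      linarith
    · obtain ⟨f, hf, ha⟩ := act_of_fx hD t0 t1 hep hx hx'
      have hfE : f ∈ Esᶜ := by
        rw [mem_sdiff, mem_inter] at hf
        rw [mem_compl]
        exact fun h => hf.2 ⟨hf.1, h⟩
      rw [ind_pos hx', ind_neg (not_not.2 hx), zero_add]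
      have h3 := single_le_sum (f := fun f =>
        ind (Act D t k (ep / ((k : ℝ) + 1) ^ 2) Sᶜ G (S \ G) f)) (fun _ _ => ind_nonneg _) hfE
      have h4 := ind_pos (Act_mono hX ha)
      linarith
  · have := ind_le_one (¬ ∃ Y ⊆ X ∩ Es, good D t k ep S G Y)
    rw [ind_pos hx]
    linarith

/-- the up-set seen from the rest `R` of the sample -/
def FF (D : Finset E → Prop) (g1 t2 : ℝ) (k : ℕ) (ep' a : ℝ) (R A : Finset E) : Prop :=
  Tn g1 R (fun G => ind (¬ ∃ Y ⊆ A, Y.card ≤ k ∧ ms D t2 (R \ G) (Y ∪ G) ≤ ep')) ≤ a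

theorem FF_mono {g1 t2 : ℝ} (h0 : 0 ≤ g1) (h1 : g1 ≤ 1) {k : ℕ} {ep' a : ℝ} {R A B : Finset E}
    (hAB : A ⊆ B) (h : FF D g1 t2 k ep' a R A) : FF D g1 t2 k ep' a R B := by
  refine (Tn_mono h0 h1 R fun G _ => ind_mono ?_).trans h
  rintro hn ⟨Y, hY, h2⟩
  exact hn ⟨Y, hY.trans hAB, h2⟩

/-- Step D: transfer from the sample to the sample without a pool. -/
theorem transfer {g g1 t t2 : ℝ} (g0 : 0 ≤ g) (gle : g ≤ 1) (g10 : 0 ≤ g1) (g11 : g1 ≤ 1)
    (t20 : 0 ≤ t2) (t21 : t2 ≤ 1) (hg : (1 - g) * g1 = g) (ht : (1 - g1) * t2 = t)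
    {k : ℕ} {ep ep' ta a : ℝ} (hep : 0 ≤ ep) (hep' : 0 < ep')
    {S X : Finset E} (hfx : fx D g t k ep S X ≤ ta) :
    a * Tn g S (fun G2 => ind (¬ FF D g1 t2 k ep' a (S \ G2) X)) ≤ ta + ep / ep' := by
  set F : Finset E → Finset E → ℝ := fun G2 G =>
    ind (¬ ∃ Y ⊆ X, Y.card ≤ k ∧ ms D t2 ((S \ G2) \ G) (Y ∪ G) ≤ ep') with hF
  have h1 : a * Tn g S (fun G2 => ind (¬ FF D g1 t2 k ep' a (S \ G2) X)) ≤
      Tn g S (fun G2 => Tn g1 (S \ G2) (fun G => F G2 G)) := by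
    refine Tn_markov g0 gle S (fun G2 _ => Tn_nonneg g10 g11 _ fun _ _ => ind_nonneg _)
      (fun G2 => ¬ FF D g1 t2 k ep' a (S \ G2) X) fun G2 _ hG2 => ?_
    unfold FF at hG2
    exact (not_le.1 hG2).le
  have h2 : Tn g S (fun G2 => Tn g1 (S \ G2) (fun G => F G2 G)) =
      Tn g S (fun G => Tn g1 (S \ G) (fun G2 => F G2 G)) :=
    TH_TH_swap (fun _ => g) (fun _ => g1) (fun _ => g) (fun _ => g1) S (fun _ _ => hg)
      (fun _ _ => hg) F
  rw [h2] at h1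
  refine h1.trans ?_
  have h3 : ∀ G, G ⊆ S → Tn g1 (S \ G) (fun G2 => F G2 G) ≤
      ind (¬ ∃ Y ⊆ X, good D t k ep S G Y) + ep / ep' := by
    intro G _
    have hq : 0 ≤ ep / ep' := div_nonneg hep hep'.le
    by_cases hx : ∃ Y ⊆ X, good D t k ep S G Y
    · obtain ⟨Y, hY, hk, hm⟩ := hx
      have h4 : ep' * Tn g1 (S \ G) (fun G2 => ind (ep' < ms D t2 ((S \ G) \ G2) (Y ∪ G))) ≤
          Tn g1 (S \ G) (fun G2 => ms D t2 ((S \ G) \ G2) (Y ∪ G)) :=
        Tn_markov g10 g11 _ (fun G2 _ => ms_nonneg t20 t21 _ _)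
          (fun G2 => ep' < ms D t2 ((S \ G) \ G2) (Y ∪ G)) fun G2 _ h => h.le
      have h5 : Tn g1 (S \ G) (fun G2 => ms D t2 ((S \ G) \ G2) (Y ∪ G)) =
          ms D t (S \ G) (Y ∪ G) :=
        TH_TH_snd (fun _ => g1) (fun _ => t2) (fun _ => t) (S \ G) (fun _ _ => ht)
          (fun N => ind (¬ D (Y ∪ G ∪ N)))
      have h6 : ep / ((Y.card : ℝ) + 1) ≤ ep := by
        refine div_le_self hep ?_
        have : (0 : ℝ) ≤ Y.card := by positivity
        linarith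
      have h7 : Tn g1 (S \ G) (fun G2 => F G2 G) ≤
          Tn g1 (S \ G) (fun G2 => ind (ep' < ms D t2 ((S \ G) \ G2) (Y ∪ G))) := by
        refine Tn_mono g10 g11 _ fun G2 _ => ind_mono fun hn => ?_
        by_contra hcon
        push Not at hcon
        refine hn ⟨Y, hY, hk, ?_⟩
        rwa [sdiff_right_comm]
      have h8 : Tn g1 (S \ G) (fun G2 => ind (ep' < ms D t2 ((S \ G) \ G2) (Y ∪ G))) ≤
          ep / ep' := by
        rw [le_div_iff₀ hep']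
        linarith
      have := ind_nonneg (¬ ∃ Y ⊆ X, good D t k ep S G Y)
      linarith
    · rw [ind_pos hx]
      have : Tn g1 (S \ G) (fun G2 => F G2 G) ≤ 1 := by
        refine (Tn_mono g10 g11 _ (g := fun _ => 1) fun _ _ => ind_le_one _).trans ?_
        rw [Tn_const]
      linarith
  refine (Tn_mono g0 gle S h3).trans ?_
  rw [Tn_add, Tn_const]
  unfold fx at hfx
  linarith

/-- Step E: J*. -/
theorem exchange3 {p g g1 t t2 : ℝ} (p0 : 0 ≤ p) (p1 : p ≤ 1) (g0 : 0 ≤ g) (gle : g ≤ 1)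
    (g10 : 0 ≤ g1) (g11 : g1 ≤ 1) {lam : ℝ} (hlam : 1 ≤ lam) (hlp : lam * p ≤ (1 - p) * g)
    {k k' : ℕ} {c ep' a : ℝ} (Ev : (E → A3) → Prop) (K : (E → A3) → Finset E)
    (hK : ∀ ω, Ev ω → (∀ e ∈ K ω, ω e = .v) ∧ FF D g1 t2 k' ep' a (lab .r ω) (K ω))
    (hn : ∀ ω, Ev ω → ∀ Y ⊆ K ω, Y.card ≤ k → c < ms D t (lab .r ω) (Y ∪ lab .h ω)) :
    EX (fun _ => w3 p g) (fun ω => ind (Ev ω)) ≤
      (lam ^ (k + 1))⁻¹ + EX (fun _ => w3 p g) (fun ω : E → A3 =>
        ind (FF D g1 t2 k' ep' a (lab .r ω) (lab .h ω) ∧ c < ms D t (lab .r ω) (lab .h ω))) := by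
  have hs : ∀ (ω ω' : E → A3), Sim A3.v A3.h ω ω' → ∀ (A : Finset E),
      FF D g1 t2 k' ep' a (lab A3.r ω) A → FF D g1 t2 k' ep' a (lab A3.r ω') A := by
    intro ω ω' hs A h
    have : lab A3.r ω = lab A3.r ω' := by
      ext e
      simp only [lab, mem_filter, mem_univ, true_and]
      rcases hs e with h | ⟨h1, h2⟩
      · rw [h]
      · constructor
        · intro h3
          rcases h1 with h1 | h1 <;> rw [h1] at h3 <;> cases h3
        · intro h3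
          rcases h2 with h2 | h2 <;> rw [h2] at h3 <;> cases h3
    rwa [← this]
  have hm : ∀ (ω : E → A3) (A B : Finset E), A ⊆ B →
      FF D g1 t2 k' ep' a (lab A3.r ω) A → FF D g1 t2 k' ep' a (lab A3.r ω) B :=
    fun ω A B hAB h => FF_mono g10 g11 hAB h
  have J := jstar_label' (E := E) (L := A3) A3.v A3.h (by decide)
    (fun _ => w3 p g) (fun _ l => w3_nonneg p0 p1 g0 gle l) lam hlam (fun _ => hlp)
    (fun ω A => FF D g1 t2 k' ep' a (lab A3.r ω) A) hm hs Ev K hK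
  obtain ⟨U, hU1, hU2, hU3⟩ := J
  have hU2' := hU2 (fun ω => ind (c < ms D t (lab .r ω) (lab .h ω)))
    (fun ω => ind_nonneg _)
  have hU3' := hU3 (k + 1) (fun _ => w3_sum p g)
  have hlp' : 0 < lam ^ (k + 1) := pow_pos (lt_of_lt_of_le one_pos hlam) _
  have hsz : EX (fun _ => w3 p g) (fun ω => if Ev ω ∧ k + 1 ≤ (U ω).card then (1 : ℝ) else 0) ≤
      (lam ^ (k + 1))⁻¹ := by
    rw [← one_div, le_div_iff₀ hlp', mul_comm]
    exact hU3'
  have hmain : ∀ ω, ind (Ev ω) ≤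
      (if Ev ω ∧ k + 1 ≤ (U ω).card then (1 : ℝ) else 0) + (if Ev ω then
      ind (c < ms D t (lab .r (H379.flip A3.h (U ω) ω)) (lab .h (H379.flip A3.h (U ω) ω))) else 0) := by
    intro ω
    by_cases hE : Ev ω
    · rw [ind_pos hE, if_pos hE]
      by_cases hk : k + 1 ≤ (U ω).card
      · rw [if_pos ⟨hE, hk⟩]
        linarith [ind_nonneg (c < ms D t (lab .r (H379.flip A3.h (U ω) ω))
          (lab .h (H379.flip A3.h (U ω) ω)))]
      · rw [if_neg (fun h => hk h.2), zero_add]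
        have hUk : (U ω).card ≤ k := by omega
        have hUX := (hU1 ω hE).1
        have hr : lab .r (H379.flip A3.h (U ω) ω) = lab .r ω := by
          ext e
          rw [mem_lab, mem_lab]
          show (if e ∈ U ω then A3.h else ω e) = A3.r ↔ ω e = A3.r
          by_cases he : e ∈ U ω
          · rw [if_pos he, (hK ω hE).1 e (hUX he)]
            constructor <;> intro h <;> cases h
          · rw [if_neg he]
        have hh : lab .h (H379.flip A3.h (U ω) ω) = U ω ∪ lab .h ω := by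
          rw [lab_flip, union_comm]
        rw [hr, hh, ind_pos (hn ω hE _ hUX hUk)]
    · rw [ind_neg hE, if_neg (fun h => hE h.1), if_neg hE, add_zero]
  refine (EX_mono (fun _ l => w3_nonneg p0 p1 g0 gle l) hmain).trans ?_
  rw [EX_add]
  refine add_le_add hsz (hU2'.trans (EX_mono (fun _ l => w3_nonneg p0 p1 g0 gle l)
      fun ω => ?_))
  by_cases hF : FF D g1 t2 k' ep' a (lab .r ω) (lab .h ω)
  · rw [if_pos hF]
    exact ind_mono fun h => ⟨hF, h⟩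
  · rw [if_neg hF]
    exact ind_nonneg _

theorem exchange {p g g1 t t2 : ℝ} (p0 : 0 ≤ p) (p1 : p ≤ 1) (g0 : 0 ≤ g) (gle : g ≤ 1)
    (g10 : 0 ≤ g1) (g11 : g1 ≤ 1) {lam : ℝ} (hlam : 1 ≤ lam) (hlp : lam * p ≤ (1 - p) * g)
    {k k' : ℕ} {ep ep' a : ℝ} (hep : 0 ≤ ep) (LL : Finset E → Prop) (X : Finset E → Finset E)
    (hX : ∀ S, LL S → X S ⊆ Sᶜ) :
    EX (fun _ => w2 p) (fun ω : E → Bool => Tn g (lab true ω) (fun G =>
      ind (LL (lab true ω) ∧ FF D g1 t2 k' ep' a (lab true ω \ G) (X (lab true ω)) ∧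
        ¬ ∃ Y ⊆ X (lab true ω), good D t k ep (lab true ω) G Y))) ≤
      (lam ^ (k + 1))⁻¹ + EX (fun _ => w3 p g) (fun ω : E → A3 =>
        ind (FF D g1 t2 k' ep' a (lab .r ω) (lab .h ω) ∧
          ep / ((k : ℝ) + 1) < ms D t (lab .r ω) (lab .h ω))) := by
  have hR : ∀ ω : E → A3, (lab .h ω ∪ lab .r ω) \ lab .h ω = lab .r ω := by
    intro ω
    ext e
    simp only [lab, mem_sdiff, mem_union, mem_filter, mem_univ, true_and]
    constructor
    · rintro ⟨h | h, h'⟩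
      · exact absurd h h'
      · exact h
    · intro h
      refine ⟨Or.inr h, ?_⟩
      rw [h]
      decide
  have hcompl : ∀ (ω : E → A3) (e : E), e ∈ (lab .h ω ∪ lab .r ω)ᶜ → ω e = .v := by
    intro ω e he
    simp only [lab, mem_compl, mem_union, mem_filter, mem_univ, true_and] at he
    push Not at he
    rcases h : ω e with _ | _ | _
    · rfl
    · exact absurd h he.1
    · exact absurd h he.2
  have hK : ∀ ω : E → A3, (LL (lab .h ω ∪ lab .r ω) ∧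
      FF D g1 t2 k' ep' a ((lab .h ω ∪ lab .r ω) \ lab .h ω) (X (lab .h ω ∪ lab .r ω)) ∧
      ¬ ∃ Y ⊆ X (lab .h ω ∪ lab .r ω), good D t k ep (lab .h ω ∪ lab .r ω) (lab .h ω) Y) →
      (∀ e ∈ X (lab .h ω ∪ lab .r ω), ω e = .v) ∧
        FF D g1 t2 k' ep' a (lab .r ω) (X (lab .h ω ∪ lab .r ω)) := by
    intro ω hE
    refine ⟨fun e he => hcompl ω e (hX _ hE.1 he), ?_⟩
    have := hE.2.1
    rwa [hR] at this
  have hn : ∀ ω : E → A3, (LL (lab .h ω ∪ lab .r ω) ∧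
      FF D g1 t2 k' ep' a ((lab .h ω ∪ lab .r ω) \ lab .h ω) (X (lab .h ω ∪ lab .r ω)) ∧
      ¬ ∃ Y ⊆ X (lab .h ω ∪ lab .r ω), good D t k ep (lab .h ω ∪ lab .r ω) (lab .h ω) Y) →
      ∀ Y ⊆ X (lab .h ω ∪ lab .r ω), Y.card ≤ k →
        ep / ((k : ℝ) + 1) < ms D t (lab .r ω) (Y ∪ lab .h ω) := by
    intro ω hE Y hY hk
    by_contra hcon
    push Not at hcon
    refine hE.2.2 ⟨Y, hY, hk, ?_⟩
    rw [hR]
    refine hcon.trans (div_le_div_of_nonneg_left hep (by positivity) ?_)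
    have : (Y.card : ℝ) ≤ k := by exact_mod_cast hk
    linarith
  have h2 := exchange3 (D := D) (t := t) p0 p1 g0 gle g10 g11 hlam hlp
    (fun ω : E → A3 => LL (lab .h ω ∪ lab .r ω) ∧
      FF D g1 t2 k' ep' a ((lab .h ω ∪ lab .r ω) \ lab .h ω) (X (lab .h ω ∪ lab .r ω)) ∧
      ¬ ∃ Y ⊆ X (lab .h ω ∪ lab .r ω), good D t k ep (lab .h ω ∪ lab .r ω) (lab .h ω) Y)
    (fun ω => X (lab .h ω ∪ lab .r ω)) hK hn
  have h1 := EX2_Tn p g (E := E) (fun S G =>
      ind (LL S ∧ FF D g1 t2 k' ep' a (S \ G) (X S) ∧ ¬ ∃ Y ⊆ X S, good D t k ep S G Y))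
  exact (le_of_eq h1).trans h2

end

end Vale.Agent.P331.H828
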