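import Vale.Agent.P331.H828.Luck

/-!
# Lemma L, second part: the natural side and the conclusion
-/

set_option autoImplicit false
set_option linter.unusedSectionVars false

namespace Vale.Agent.P331.H828

open Finset Vale.Agent.P331.H489 Vale.Agent.P331.H250 Vale.Agent.P331.H379
open scoped Classical

/-- deletion of a kept element -/
def dA4 : A4 → A4
  | .x => .o
  | .o => .o
  | .g => .g
  | .r => .r

/-- cost of a kept element -/
def cA4 (c : ℝ) : A4 → ℝ
  | .x => c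
  | .o => 1
  | .g => 1
  | .r => 1

/-- the final law -/
noncomputable def nu4 (p g g' θ : ℝ) : A4 → ℝ
  | .x => w4 p g g' .g + w4 p g g' .r * θ
  | .o => w4 p g g' .o + w4 p g g' .x + w4 p g g' .r * (1 - θ)
  | .g => 0
  | .r => 0

theorem nu4_nonneg {p g g' θ : ℝ} (h0 : 0 ≤ p) (h1 : p ≤ 1) (g0 : 0 ≤ g) (g1 : g ≤ 1)
    (g0' : 0 ≤ g') (g1' : g' ≤ 1) (t0 : 0 ≤ θ) (t1 : θ ≤ 1) (l : A4) : 0 ≤ nu4 p g g' θ l := by
  have h := w4_nonneg h0 h1 g0 g1 g0' g1'
  have : 0 ≤ 1 - θ := by linarith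
  have a1 := h .o
  have a2 := h .x
  have a3 := h .g
  have a4 := h .r
  cases l <;> simp only [nu4] <;> positivity

theorem nu4_sum (p g g' θ : ℝ) : ∑ l, nu4 p g g' θ l = 1 := by
  rw [sum_A4]; simp only [nu4, w4]; ring

section

variable {E : Type} [Fintype E] {D : Finset E → Prop}

/-- the event of the quenched lemma -/
def QJ (D : Finset E → Prop) (t2 t3 : ℝ) (k : ℕ) (ep' a : ℝ) (H R G : Finset E) : Prop :=
  (∃ Y ⊆ H, Y.card ≤ k ∧ ms D t2 R (Y ∪ G) ≤ ep') ∧ a ≤ ms D t3 R (H ∪ G)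

theorem qj_point {g1 t t2 t3 : ℝ} (g10 : 0 ≤ g1) (g11 : g1 ≤ 1) (t30 : 0 ≤ t3) (t31 : t3 ≤ 1)
    (ht : g1 + (1 - g1) * t3 = t) {k : ℕ} {ep' a : ℝ} (ha : 0 ≤ a) {R H : Finset E}
    (hF : FF D g1 t2 k ep' a R H) (hm : 3 * a < ms D t R H) :
    a ≤ Tn g1 R (fun G => ind (QJ D t2 t3 k ep' a H (R \ G) G)) := by
  have h1 : ms D t R H = Tn g1 R (fun G => ms D t3 (R \ G) (H ∪ G)) := by
    have := TH_TH_union (fun _ => g1) (fun _ => t3) (fun _ => t) R (fun _ _ => ht)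
      (fun N => ind (¬ D (H ∪ N)))
    unfold ms Tn
    rw [← this]
    refine TH_congr (fun _ _ => rfl) fun G _ => ?_
    refine TH_congr (fun _ _ => rfl) fun N _ => ?_
    rw [union_assoc]
  have h2 : Tn g1 R (fun G => ms D t3 (R \ G) (H ∪ G)) ≤
      Tn g1 R (fun G => (ind (¬ ∃ Y ⊆ H, Y.card ≤ k ∧ ms D t2 (R \ G) (Y ∪ G) ≤ ep') + a) +
        ind (QJ D t2 t3 k ep' a H (R \ G) G)) := by
    refine Tn_mono g10 g11 R fun G _ => ?_
    have b0 := ind_nonneg (¬ ∃ Y ⊆ H, Y.card ≤ k ∧ ms D t2 (R \ G) (Y ∪ G) ≤ ep')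
    have b1 := ind_nonneg (QJ D t2 t3 k ep' a H (R \ G) G)
    by_cases hlt : ms D t3 (R \ G) (H ∪ G) < a
    · linarith
    · have hone := ms_le_one (D := D) t30 t31 (R \ G) (H ∪ G)
      by_cases hY : ∃ Y ⊆ H, Y.card ≤ k ∧ ms D t2 (R \ G) (Y ∪ G) ≤ ep'
      · have : ind (QJ D t2 t3 k ep' a H (R \ G) G) = 1 := ind_pos ⟨hY, not_lt.1 hlt⟩
        linarith
      · have := ind_pos hY
        linarith
  rw [Tn_add, Tn_add, Tn_const, ← h1] at h2
  unfold FF at hF
  linarith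

/-- the quenched joint removal lemma for the pair (kept pool, averaged pool) -/
theorem qj_prob (hD : ∀ A B : Finset E, A ⊆ B → D A → D B) {p g g1 t2 t3 : ℝ} (p0 : 0 ≤ p)
    (p1 : p ≤ 1) (g0 : 0 ≤ g) (gle : g ≤ 1) (g10 : 0 ≤ g1) (g11 : g1 ≤ 1)
    (t20 : 0 ≤ t2) (t21 : t2 ≤ 1) (t30 : 0 ≤ t3) (t31 : t3 ≤ 1) {lq : ℝ} (hlq : 1 ≤ lq)
    (hone : H514.One (cA4 lq) dA4 9 7 (w4 p g g1) (K4 t2) (K4 t3) (nu4 p g g1 t2))
    {k : ℕ} {ep' a : ℝ} (hep' : 0 ≤ ep') (ha : 0 ≤ a) :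
    a ^ 16 * EX (fun _ => w4 p g g1) (fun ω : E → A4 =>
      ind (QJ D t2 t3 k ep' a (lab .x ω) (lab .r ω) (lab .g ω))) ≤ (lq ^ k * ep') ^ 7 := by
  have hc : ∀ l, 0 < cA4 lq l := by
    intro l
    cases l <;> simp only [cA4] <;> linarith
  have h := H514.tens_markov (E := E) (c := cA4 lq) (d := dA4) (m := 9) (s := 7) hc
    (fun _ => w4 p g g1) (fun _ => K4 t2) (fun _ => K4 t3) (fun _ => nu4 p g g1 t2)
    (fun _ => w4_nonneg p0 p1 g0 gle g10 g11)
    (fun _ => nu4_nonneg p0 p1 g0 gle g10 g11 t20 t21)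
    (fun _ => K4_nonneg t20 t21) (fun _ => K4_sum t2) (fun _ => K4_nonneg t30 t31)
    (fun _ => K4_sum t3) (fun _ => hone) (fun τ => ind (¬ D (lab .x τ)))
    (fun _ => ind_nonneg _) ?_
    (fun ω => QJ D t2 t3 k ep' a (lab .x ω) (lab .r ω) (lab .g ω))
    (α := lq ^ k * ep') (β := a) (by positivity) ha ?_
  · refine h.trans ?_
    have h1 : EX (fun _ => nu4 p g g1 t2) (fun τ : E → A4 => ind (¬ D (lab .x τ)) ^ 9) ≤ 1 := by
      refine (EX_mono (fun _ => nu4_nonneg p0 p1 g0 gle g10 g11 t20 t21)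
        (G := fun _ => 1) fun τ => ?_).trans (le_of_eq (EX_one _ (fun _ => nu4_sum _ _ _ _) 1))
      exact pow_le_one₀ (ind_nonneg _) (ind_le_one _)
    calc (lq ^ k * ep') ^ 7 * EX (fun _ => nu4 p g g1 t2)
          (fun τ : E → A4 => ind (¬ D (lab .x τ)) ^ 9) ≤ (lq ^ k * ep') ^ 7 * 1 :=
          mul_le_mul_of_nonneg_left h1 (by positivity)
      _ = _ := mul_one _
  · intro ω e
    refine ind_mono fun hn hc => hn (hD _ _ ?_ hc)
    intro x hx
    rw [mem_lab] at hx ⊢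
    by_cases hxe : x = e
    · subst hxe
      rw [Function.update_self] at hx
      rcases h : ω x with _ | _ | _ | _ <;> rw [h] at hx <;> simp [dA4] at hx
    · rwa [Function.update_of_ne hxe] at hx
  · rintro ω ⟨⟨Y, hY, hk, hm⟩, hb⟩
    refine ⟨?_, Y ∪ (lab .x ω)ᶜ, ?_⟩
    · rw [KE_K4]
      exact hb
    · have hYx : ∀ e ∈ Y, ω e = .x := fun e he => mem_lab.1 (hY he)
      have hcost : (∏ e, if e ∈ Y ∪ (lab .x ω)ᶜ then cA4 lq (ω e) else 1) = lq ^ Y.card := by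
        rw [← prod_const, ← Finset.prod_ite_mem_eq Y (fun _ => lq)]
        refine prod_congr rfl fun e _ => ?_
        by_cases he : e ∈ Y
        · rw [if_pos (mem_union_left _ he), if_pos he, hYx e he]
          rfl
        · rw [if_neg he]
          by_cases hx : ω e = .x
          · rw [if_neg]
            rw [mem_union, mem_compl, mem_lab]
            push Not
            exact ⟨he, hx⟩
          · rw [if_pos (mem_union_right _ (by rw [mem_compl, mem_lab]; exact hx))]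
            rcases h : ω e with _ | _ | _ | _
            · rfl
            · exact absurd h hx
            · rfl
            · rfl
      have hset : ∀ l : A4, lab l (fun e => if e ∈ Y ∪ (lab .x ω)ᶜ then ω e else dA4 (ω e)) =
          match l with
          | .x => Y
          | .o => lab .o ω ∪ (lab .x ω \ Y)
          | .g => lab .g ω
          | .r => lab .r ω := by
        intro l
        ext e
        rw [mem_lab]
        by_cases he : e ∈ Y
        · rw [if_pos (mem_union_left _ he), hYx e he]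
          cases l <;> simp [he, hYx e he]
        · by_cases hx : ω e = .x
          · have hne : e ∉ Y ∪ (lab .x ω)ᶜ := by
              rw [mem_union, mem_compl, mem_lab]
              push Not
              exact ⟨he, hx⟩
            rw [if_neg hne, hx]
            cases l <;> simp [he, hx, dA4]
          · rw [if_pos (mem_union_right _ (by rw [mem_compl, mem_lab]; exact hx))]
            cases l <;> simp [he, hx]
      rw [hcost, KE_K4, hset, hset, hset]
      refine mul_le_mul (pow_le_pow_right₀ hlq hk) hm (ms_nonneg t20 t21 _ _) (by positivity)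

/-- Step F. -/
theorem natural_side (hD : ∀ A B : Finset E, A ⊆ B → D A → D B) {p g g1 t t2 t3 : ℝ}
    (p0 : 0 ≤ p) (p1 : p ≤ 1) (g0 : 0 ≤ g) (gle : g ≤ 1) (g10 : 0 ≤ g1) (g11 : g1 ≤ 1)
    (t20 : 0 ≤ t2) (t21 : t2 ≤ 1) (t30 : 0 ≤ t3) (t31 : t3 ≤ 1)
    (ht : g1 + (1 - g1) * t3 = t) {lq : ℝ} (hlq : 1 ≤ lq)
    (hone : H514.One (cA4 lq) dA4 9 7 (w4 p g g1) (K4 t2) (K4 t3) (nu4 p g g1 t2))
    {k : ℕ} {ep' a : ℝ} (hep' : 0 ≤ ep') (ha : 0 < a) :
    EX (fun _ => w3 p g) (fun ω : E → A3 =>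
      ind (FF D g1 t2 k ep' a (lab .r ω) (lab .h ω) ∧ 3 * a < ms D t (lab .r ω) (lab .h ω))) ≤
      (lq ^ k * ep') ^ 7 / a ^ 17 := by
  have h1 : ∀ ω : E → A3, a *
      ind (FF D g1 t2 k ep' a (lab .r ω) (lab .h ω) ∧ 3 * a < ms D t (lab .r ω) (lab .h ω)) ≤
      Tn g1 (lab .r ω) (fun G => ind (QJ D t2 t3 k ep' a (lab .h ω) (lab .r ω \ G) G)) := by
    intro ω
    by_cases h : FF D g1 t2 k ep' a (lab .r ω) (lab .h ω) ∧ 3 * a < ms D t (lab .r ω) (lab .h ω)
    · rw [ind_pos h, mul_one]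
      exact qj_point g10 g11 t30 t31 ht ha.le h.1 h.2
    · rw [ind_neg h, mul_zero]
      exact Tn_nonneg g10 g11 _ fun _ _ => ind_nonneg _
  have h2 := EX_mono (w := fun _ : E => w3 p g) (fun _ => w3_nonneg p0 p1 g0 gle) h1
  rw [EX_mul] at h2
  have h3 := EX3_Tn (E := E) p g g1 (fun H R G => ind (QJ D t2 t3 k ep' a H (R \ G) G))
  have h4 : EX (fun _ => w4 p g g1) (fun ω : E → A4 =>
      ind (QJ D t2 t3 k ep' a (lab .x ω) ((lab .g ω ∪ lab .r ω) \ lab .g ω) (lab .g ω))) =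
      EX (fun _ => w4 p g g1) (fun ω : E → A4 =>
      ind (QJ D t2 t3 k ep' a (lab .x ω) (lab .r ω) (lab .g ω))) := by
    congr 1
    funext ω
    have : (lab .g ω ∪ lab .r ω) \ lab .g ω = lab .r ω := by
      ext e
      rw [mem_sdiff, mem_union, mem_lab, mem_lab]
      constructor
      · rintro ⟨h | h, h'⟩
        · exact absurd h h'
        · exact h
      · intro h
        refine ⟨Or.inr h, ?_⟩
        rw [h]
        decide
    rw [this]
  have h5 := qj_prob (E := E) hD p0 p1 g0 gle g10 g11 t20 t21 t30 t31 hlq hone (k := k) hep' ha.le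
  have h6 := h2.trans (le_of_eq (h3.trans h4))
  rw [le_div_iff₀ (by positivity)]
  have ha16 : 0 ≤ a ^ 16 := by positivity
  nlinarith [mul_le_mul_of_nonneg_left h6 ha16]

end

end Vale.Agent.P331.H828
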