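import Vale.Agent.P331.H828.Luck2

/-!
# Lemma L, conclusion
-/

set_option autoImplicit false
set_option linter.unusedSectionVars false

namespace Vale.Agent.P331.H828

open Finset Vale.Agent.P331.H489 Vale.Agent.P331.H250 Vale.Agent.P331.H379
open scoped Classical

section

variable {E : Type} [Fintype E] {D : Finset E → Prop}

theorem sdiff_hr (ω : E → A3) : (lab .h ω ∪ lab .r ω) \ lab .h ω = lab .r ω := by
  ext e
  rw [mem_sdiff, mem_union, mem_lab, mem_lab]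
  constructor
  · rintro ⟨h | h, h'⟩
    · exact absurd h h'
    · exact h
  · intro h
    refine ⟨Or.inr h, ?_⟩
    rw [h]
    decide

theorem compl_hr (ω : E → A3) : (lab .h ω ∪ lab .r ω)ᶜ = lab .v ω := by
  ext e
  rw [mem_compl, mem_union, mem_lab, mem_lab, mem_lab]
  rcases ω e with _ | _ | _ <;> simp

/-- `f` is active in the space of the labels test / pool / rest -/
noncomputable def PAct (D : Finset E → Prop) (p g t : ℝ) (k : ℕ) (de : ℝ) (f : E) : ℝ :=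
  EX (fun _ => w3 p g) (fun ω : E → A3 =>
    ind (Act D t k de (lab .v ω) (lab .h ω) (lab .r ω) f))

theorem EX2_Act (p g t : ℝ) (k : ℕ) (de : ℝ) (f : E) :
    EX (fun _ => w2 p) (fun ω : E → Bool => Tn g (lab true ω) (fun G =>
      ind (Act D t k de (lab true ω)ᶜ G (lab true ω \ G) f))) = PAct D p g t k de f := by
  have h := EX2_Tn p g (E := E) (fun S G => ind (Act D t k de Sᶜ G (S \ G) f))
  refine h.trans ?_
  unfold PAct
  congr 1
  funext ω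
  rw [sdiff_hr, compl_hr]

/-- the bad event of one level: a violating set of test elements without a violating subset of the
level below -/
def LL (D : Finset E → Prop) (g t : ℝ) (k : ℕ) (ep Z ta : ℝ) (k' : ℕ) (ep1 ta1 : ℝ)
    (S : Finset E) : Prop :=
  ∃ X ⊆ Sᶜ, fx D g t k' ep1 S X ≤ ta1 ∧ ∀ X' ⊆ X, ¬ vio D g t k ep Z ta S X'

/-- **Lemma L.** -/
theorem luck (hD : ∀ A B : Finset E, A ⊆ B → D A → D B) {p g g1 t t2 t3 : ℝ}
    (p0 : 0 ≤ p) (p1 : p ≤ 1) (g0 : 0 ≤ g) (gle : g ≤ 1) (g10 : 0 ≤ g1) (g11 : g1 ≤ 1)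
    (t0 : 0 ≤ t) (t1 : t ≤ 1) (t20 : 0 ≤ t2) (t21 : t2 ≤ 1) (t30 : 0 ≤ t3) (t31 : t3 ≤ 1)
    (hg : (1 - g) * g1 = g) (ht2 : (1 - g1) * t2 = t) (ht3 : g1 + (1 - g1) * t3 = t)
    {lq : ℝ} (hlq : 1 ≤ lq)
    (hone : H514.One (cA4 lq) dA4 9 7 (w4 p g g1) (K4 t2) (K4 t3) (nu4 p g g1 t2))
    {lam : ℝ} (hlam : 1 ≤ lam) (hlp : lam * p ≤ (1 - p) * g)
    {k k' : ℕ} {ep Z ta ep1 ta1 ep' : ℝ} (hep : 0 < ep) (hta : 0 ≤ ta) (hep1 : 0 ≤ ep1)
    (hep' : 0 < ep') {Es : Finset E} (hEs : (Es.card : ℝ) ≤ Z)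
    (hsm : (ta1 + ep1 / ep') / (ep / (3 * ((k : ℝ) + 1))) ≤ ta / (Z + 1) / 2) :
    ta / (Z + 1) / 2 * EX (fun _ => w2 p) (fun ω : E → Bool =>
      ind (LL D g t k ep Z ta k' ep1 ta1 (lab true ω))) ≤
      ∑ f ∈ Esᶜ, PAct D p g t k (ep / ((k : ℝ) + 1) ^ 2) f + (lam ^ (k + 1))⁻¹ +
        (lq ^ k' * ep') ^ 7 / (ep / (3 * ((k : ℝ) + 1))) ^ 17 := by
  set a : ℝ := ep / (3 * ((k : ℝ) + 1)) with ha
  have ha0 : 0 < a := by rw [ha]; positivity
  have h3a : 3 * a = ep / ((k : ℝ) + 1) := by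
    rw [ha]
    field_simp
  obtain ⟨X, hX⟩ : ∃ X : Finset E → Finset E, ∀ S, LL D g t k ep Z ta k' ep1 ta1 S →
      X S ⊆ Sᶜ ∧ fx D g t k' ep1 S (X S) ≤ ta1 ∧ ∀ X' ⊆ X S, ¬ vio D g t k ep Z ta S X' := by
    refine ⟨fun S => if h : LL D g t k ep Z ta k' ep1 ta1 S then h.choose else ∅, fun S h => ?_⟩
    simp only [dif_pos h]
    exact h.choose_spec
  -- pointwise inequality
  have hpt : ∀ S : Finset E, ta / (Z + 1) / 2 * ind (LL D g t k ep Z ta k' ep1 ta1 S) ≤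
      ∑ f ∈ Esᶜ, Tn g S (fun G => ind (Act D t k (ep / ((k : ℝ) + 1) ^ 2) Sᶜ G (S \ G) f)) +
      Tn g S (fun G => ind (LL D g t k ep Z ta k' ep1 ta1 S ∧
        FF D g1 t2 k' ep' a (S \ G) (X S) ∧ ¬ ∃ Y ⊆ X S, good D t k ep S G Y)) := by
    intro S
    have s0 : 0 ≤ ∑ f ∈ Esᶜ, Tn g S (fun G =>
        ind (Act D t k (ep / ((k : ℝ) + 1) ^ 2) Sᶜ G (S \ G) f)) :=
      sum_nonneg fun f _ => Tn_nonneg g0 gle _ fun _ _ => ind_nonneg _
    have s1 : 0 ≤ Tn g S (fun G => ind (LL D g t k ep Z ta k' ep1 ta1 S ∧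
        FF D g1 t2 k' ep' a (S \ G) (X S) ∧ ¬ ∃ Y ⊆ X S, good D t k ep S G Y)) :=
      Tn_nonneg g0 gle _ fun _ _ => ind_nonneg _
    by_cases hL : LL D g t k ep Z ta k' ep1 ta1 S
    · obtain ⟨hXS, hfx, hno⟩ := hX S hL
      rw [ind_pos hL, mul_one]
      have h1 := split_point hD g0 gle t0 t1 hep.le hta hXS hno hEs
      have h2 : Tn g S (fun G => ind (¬ ∃ Y ⊆ X S, good D t k ep S G Y)) ≤
          Tn g S (fun G => ind (¬ FF D g1 t2 k' ep' a (S \ G) (X S))) +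
          Tn g S (fun G => ind (LL D g t k ep Z ta k' ep1 ta1 S ∧
            FF D g1 t2 k' ep' a (S \ G) (X S) ∧ ¬ ∃ Y ⊆ X S, good D t k ep S G Y)) := by
        rw [← Tn_add]
        refine Tn_mono g0 gle _ fun G _ => ?_
        by_cases hF : FF D g1 t2 k' ep' a (S \ G) (X S)
        · have b0 := ind_nonneg (¬ FF D g1 t2 k' ep' a (S \ G) (X S))
          have b1 := ind_mono (P := ¬ ∃ Y ⊆ X S, good D t k ep S G Y)
            (Q := LL D g t k ep Z ta k' ep1 ta1 S ∧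
            FF D g1 t2 k' ep' a (S \ G) (X S) ∧ ¬ ∃ Y ⊆ X S, good D t k ep S G Y)
            fun h => ⟨hL, hF, h⟩
          linarith
        · have b0 := ind_pos hF
          have b1 := ind_le_one (¬ ∃ Y ⊆ X S, good D t k ep S G Y)
          have b2 := ind_nonneg (LL D g t k ep Z ta k' ep1 ta1 S ∧
            FF D g1 t2 k' ep' a (S \ G) (X S) ∧ ¬ ∃ Y ⊆ X S, good D t k ep S G Y)
          linarith
      have h3 := transfer (D := D) (a := a) g0 gle g10 g11 t20 t21 hg ht2 hep1 hep' hfx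
      have h4 : Tn g S (fun G => ind (¬ FF D g1 t2 k' ep' a (S \ G) (X S))) ≤
          ta / (Z + 1) / 2 := by
        refine le_trans ?_ hsm
        rw [le_div_iff₀ ha0, mul_comm]
        exact h3
      linarith
    · rw [ind_neg hL, mul_zero]
      linarith
  have h1 := EX_mono (w := fun _ : E => w2 p) (fun _ => w2_nonneg p0 p1)
    (fun ω : E → Bool => hpt (lab true ω))
  rw [EX_mul, EX_add, EX_sum] at h1
  have h2 : ∑ f ∈ Esᶜ, EX (fun _ : E => w2 p) (fun ω : E → Bool => Tn g (lab true ω) (fun G =>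
      ind (Act D t k (ep / ((k : ℝ) + 1) ^ 2) (lab true ω)ᶜ G (lab true ω \ G) f))) =
      ∑ f ∈ Esᶜ, PAct D p g t k (ep / ((k : ℝ) + 1) ^ 2) f :=
    sum_congr rfl fun f _ => EX2_Act p g t k _ f
  rw [h2] at h1
  have h3 := exchange (D := D) (t := t) (t2 := t2) (a := a) (ep' := ep') (k' := k') p0 p1 g0 gle
    g10 g11 hlam hlp (k := k) hep.le (fun S => LL D g t k ep Z ta k' ep1 ta1 S) X
    (fun S hS => (hX S hS).1)
  have h4 := natural_side (E := E) hD p0 p1 g0 gle g10 g11 t20 t21 t30 t31 ht3 hlq hone (k := k')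
    hep'.le ha0
  rw [h3a] at h4
  linarith

end

end Vale.Agent.P331.H828
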